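import Vale.Agent.Lib.P183.L7.Subgroups

/-! Every subgroup of SL(2,64) containing SL(2,2) is one of the seven subgroups `phi i`. -/

namespace Vale.Agent.Lib.P183.L7

/-- Upper unitriangular matrices. -/
def E12 (t : F64) : SL2 := ⟨1, t, 0, 1, by simp⟩

/-- Lower unitriangular matrices. -/
def E21 (t : F64) : SL2 := ⟨1, 0, t, 1, by simp⟩

theorem E12_add (s t : F64) : E12 (s + t) = E12 s * E12 t := by
  refine SL2.ext ?_ ?_ ?_ ?_ <;> simp [E12, add_comm]

theorem E21_eq (t : F64) : E21 t = hE 3 * E12 t * hE 3 := by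
  refine SL2.ext ?_ ?_ ?_ ?_ <;> simp [E12, E21, hE]

section Generation

variable {mask : Nat}

theorem bit_add (h : subringOK mask = true) {x y : F64} (hx : bit mask x.val = true)
    (hy : bit mask y.val = true) : bit mask (x + y).val = true :=
  (subring_op h x.isLt y.isLt hx hy).1

theorem bit_mul (h : subringOK mask = true) {x y : F64} (hx : bit mask x.val = true)
    (hy : bit mask y.val = true) : bit mask (x * y).val = true :=
  (subring_op h x.isLt y.isLt hx hy).2

theorem bit_inv (h : invOK mask = true) {x : F64} (hx : bit mask x.val = true) :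
    bit mask (F64.inv x).val = true := by
  have := loop_spec h x.val x.isLt
  rw [hx, cond_true] at this
  exact this

/-- A subgroup containing the swap and the upper unitriangular matrices with entries in a subfield
contains all of SL(2) of that subfield. -/
theorem gen_sub {K : Subgroup SL2} (hs : subringOK mask = true) (hi : invOK mask = true)
    (h3 : hE 3 ∈ K) (hE12 : ∀ t : F64, bit mask t.val = true → E12 t ∈ K)
    (x : SL2) (hx : inMask mask (toNM x) = true) : x ∈ K := by
  have main : ∀ y : SL2, inMask mask (toNM y) = true → y.c ≠ 0 → y ∈ K := by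
    intro y hy hc
    obtain ⟨h1, h2, h4, h5⟩ := inMask_iff.1 hy
    have h1' : bit mask y.a.val = true := h1
    have h4' : bit mask y.c.val = true := h4
    have h5' : bit mask y.d.val = true := h5
    have hone : bit mask (1 : F64).val = true := subring_one hs
    set i := F64.inv y.c with hidef
    have hic : bit mask i.val = true := bit_inv hi h4'
    have hci : y.c * i = 1 := F64.mul_inv hc
    have two := F64.two_eq_zero
    have hdet := y.det
    have hfac : y = E12 ((y.a + 1) * i) * E21 y.c * E12 ((y.d + 1) * i) := by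
      refine SL2.ext ?_ ?_ ?_ ?_
      · simp only [E12, E21, SL2.mul_a, SL2.mul_b]
        linear_combination (-(y.a + 1)) * hci - two
      · simp only [E12, E21, SL2.mul_a, SL2.mul_b]
        linear_combination (-i) * hdet + (y.b - (y.a + 1) * (y.d + 1) * i) * hci +
          (y.b - (y.a + y.d + 2) * i) * two
      · simp [E12, E21]
      · simp only [E12, E21, SL2.mul_c, SL2.mul_d]
        linear_combination (-(y.d + 1)) * hci - two
    rw [hfac, E21_eq]
    refine K.mul_mem (K.mul_mem ?_ (K.mul_mem (K.mul_mem h3 ?_) h3)) ?_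
    · exact hE12 _ (bit_mul hs (bit_add hs h1' hone) hic)
    · exact hE12 _ h4'
    · exact hE12 _ (bit_mul hs (bit_add hs h5' hone) hic)
  by_cases hc : x.c = 0
  · have hd : x.d ≠ 0 := by
      intro h0
      have := x.det
      rw [hc, h0, mul_zero, mul_zero, add_zero] at this
      have h1 : (0 : F64).val = (1 : F64).val := congrArg F64.val this
      simp at h1
    have hy : x * hE 3 ∈ K := by
      apply main
      · obtain ⟨h1, h2, h4, h5⟩ := inMask_iff.1 hx
        have e : toNM (x * hE 3) = rmul 3 (toNM x) := toNM_mul_hE 3 x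
        rw [e]
        exact inMask_iff.2 ⟨h2, h1, h5, h4⟩
      · have e : (x * hE 3).c = x.d := by simp [hE]
        rw [e]
        exact hd
    have h5 : x = x * hE 3 * hE 3 := by
      rw [mul_assoc]
      have : hE 3 * hE 3 = 1 := by
        refine SL2.ext ?_ ?_ ?_ ?_ <;> simp [hE]
      rw [this, mul_one]
    rw [h5]
    exact K.mul_mem hy h3
  · exact main x hx hc

end Generation

/-- Upper unitriangular matrices indexed by natural numbers. -/
def e12 (n : Nat) : SL2 := E12 ⟨n % 64, Nat.mod_lt _ (by omega)⟩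

theorem e12_of_lt {n : Nat} (h : n < 64) : e12 n = E12 ⟨n, h⟩ := by
  unfold e12
  congr 2
  exact Nat.mod_eq_of_lt h

theorem E12_eq_e12 (t : F64) : E12 t = e12 t.val := by
  rw [e12_of_lt t.isLt]

theorem e12_xor {a b : Nat} (ha : a < 64) (hb : b < 64) :
    e12 (Nat.xor a b) = e12 a * e12 b := by
  rw [e12_of_lt ha, e12_of_lt hb, e12_of_lt (xor_lt ha hb), ← E12_add]
  rfl

theorem e12_zero : e12 0 = 1 := by
  refine SL2.ext ?_ ?_ ?_ ?_ <;> rfl

theorem e12_one : e12 1 = hE 1 := by
  refine SL2.ext ?_ ?_ ?_ ?_ <;> rfl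

theorem e12_root1 : e12 58 = rootE 1 := by
  refine SL2.ext ?_ ?_ ?_ ?_ <;> rfl

theorem e12_root4 : e12 24 = rootE 4 := by
  refine SL2.ext ?_ ?_ ?_ ?_ <;> rfl

theorem e12_root6 : e12 2 = rootE 6 := by
  refine SL2.ext ?_ ?_ ?_ ?_ <;> rfl

/-- Generators for the words. -/
def genOf (z : SL2) : Nat → SL2
  | 0 => hE 1
  | 1 => hE 3
  | _ => z

/-- Value of a word in the generators. -/
def evalW (z : SL2) (w : List Nat) : SL2 := w.foldl (fun acc g => acc * genOf z g) 1

theorem evalW_mem {K : Subgroup SL2} {z : SL2} (h1 : hE 1 ∈ K) (h3 : hE 3 ∈ K) (hz : z ∈ K)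
    (w : List Nat) : evalW z w ∈ K := by
  have key : ∀ (w : List Nat) (acc : SL2), acc ∈ K →
      w.foldl (fun acc g => acc * genOf z g) acc ∈ K := by
    intro w
    induction w with
    | nil => intro acc h; exact h
    | cons g w ih =>
      intro acc h
      refine ih _ (K.mul_mem h ?_)
      match g with
      | 0 => exact h1
      | 1 => exact h3
      | n + 2 => exact hz
  exact key w 1 K.one_mem

/-- Word giving the upper unitriangular matrix with entry 14 from the one with entry 24. -/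
def w14 : List Nat := [0,1,2,1,2,1,0,2,1,2,1,0,2,1,2,1,2,1]
/-- Word giving the upper unitriangular matrix with entry 4 from the one with entry 2. -/
def w4 : List Nat :=
  [1,0,2,1,2,1,2,1,0,2,1,0,2,1,2,1,0,2,1,0,2,1,2,1,2,1,0,2,1,2,1,2,1,2,1,0,2,1,2,1]
/-- Word giving the upper unitriangular matrix with entry 8 from the one with entry 2. -/
def w8 : List Nat :=
  [0,1,2,1,0,2,1,0,2,1,0,2,1,2,1,2,1,2,1,2,1,2,1,2,1,2,1,2,1,2,1,0,2,1,0,2,1,0,2,1,2,1,2]
/-- Word giving the upper unitriangular matrix with entry 16 from the one with entry 2. -/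
def w16 : List Nat :=
  [0,1,0,2,1,0,2,1,2,1,0,2,1,2,1,2,1,2,1,2,1,0,2,1,2,1,0,2,1,0,2,1,2,1,0,2,1,2,1,2,1]
/-- Word giving the upper unitriangular matrix with entry 32 from the one with entry 2. -/
def w32 : List Nat :=
  [1,0,2,1,0,2,1,2,1,0,2,1,0,2,1,2,1,2,1,2,1,0,2,1,2,1,2,1,0,2,1,2,1,2,1,2,1,2,1,2,1]

theorem eval14 : NM.beq (toNM (evalW (rootE 4) w14)) (toNM (e12 14)) = true := by decide +kernel
theorem eval4 : NM.beq (toNM (evalW (rootE 6) w4)) (toNM (e12 4)) = true := by decide +kernel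
theorem eval8 : NM.beq (toNM (evalW (rootE 6) w8)) (toNM (e12 8)) = true := by decide +kernel
theorem eval16 : NM.beq (toNM (evalW (rootE 6) w16)) (toNM (e12 16)) = true := by decide +kernel
theorem eval32 : NM.beq (toNM (evalW (rootE 6) w32)) (toNM (e12 32)) = true := by decide +kernel

theorem F4_vals : ∀ n, n < 64 → bit F4m n = true → n = 0 ∨ n = 1 ∨ n = 58 ∨ n = 59 := by
  decide +kernel

theorem F8_vals : ∀ n, n < 64 → bit F8m n = true →
    n = 0 ∨ n = 1 ∨ n = 14 ∨ n = 15 ∨ n = 22 ∨ n = 23 ∨ n = 24 ∨ n = 25 := by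
  decide +kernel

section Roots

variable {K : Subgroup SL2}

theorem e12_mem_of_xor {a b c : Nat} (ha : a < 64) (hb : b < 64) (hc : Nat.xor a b = c)
    (h1 : e12 a ∈ K) (h2 : e12 b ∈ K) : e12 c ∈ K := by
  rw [← hc, e12_xor ha hb]
  exact K.mul_mem h1 h2

theorem phi1_le (hK : phi 0 ≤ K) (h : rootE 1 ∈ K) : phi 1 ≤ K := by
  intro x hx
  have h0 : e12 0 ∈ K := by rw [e12_zero]; exact K.one_mem
  have h1 : e12 1 ∈ K := by rw [e12_one]; exact hK (hE_mem_phi0 1)
  have h58 : e12 58 ∈ K := by rw [e12_root1]; exact h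
  refine gen_sub subringOK_F4 invOK_F4 (hK (hE_mem_phi0 3)) ?_ x ((mem_phi 1 x).1 hx)
  intro t ht
  rw [E12_eq_e12]
  rcases F4_vals t.val t.isLt ht with e | e | e | e <;> rw [e]
  · exact h0
  · exact h1
  · exact h58
  · exact e12_mem_of_xor (a := 58) (b := 1) (by omega) (by omega) (by decide) h58 h1

theorem phi4_le (hK : phi 0 ≤ K) (h : rootE 4 ∈ K) : phi 4 ≤ K := by
  intro x hx
  have h0 : e12 0 ∈ K := by rw [e12_zero]; exact K.one_mem
  have hE1 := hK (hE_mem_phi0 1)
  have hE3 := hK (hE_mem_phi0 3)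
  have h1 : e12 1 ∈ K := by rw [e12_one]; exact hE1
  have h24 : e12 24 ∈ K := by rw [e12_root4]; exact h
  have h14 : e12 14 ∈ K := by
    have e := toNM_inj (NM.eq_of_beq eval14)
    rw [← e]
    exact evalW_mem hE1 hE3 h _
  have h15 : e12 15 ∈ K :=
    e12_mem_of_xor (a := 14) (b := 1) (by omega) (by omega) (by decide) h14 h1
  have h22 : e12 22 ∈ K :=
    e12_mem_of_xor (a := 14) (b := 24) (by omega) (by omega) (by decide) h14 h24
  have h23 : e12 23 ∈ K :=
    e12_mem_of_xor (a := 22) (b := 1) (by omega) (by omega) (by decide) h22 h1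
  have h25 : e12 25 ∈ K :=
    e12_mem_of_xor (a := 24) (b := 1) (by omega) (by omega) (by decide) h24 h1
  refine gen_sub subringOK_F8 invOK_F8 hE3 ?_ x ((mem_phi 4 x).1 hx)
  intro t ht
  rw [E12_eq_e12]
  rcases F8_vals t.val t.isLt ht with e | e | e | e | e | e | e | e <;> rw [e] <;> assumption

theorem double_step {b : Nat} (hb : b < 64) (hbK : e12 b ∈ K) (h : ∀ n, n < b → e12 n ∈ K)
    (hx : ∀ n, n < 2 * b → b ≤ n → Nat.xor b (n - b) = n) : ∀ n, n < 2 * b → e12 n ∈ K := by
  intro n hn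
  by_cases hnb : n < b
  · exact h n hnb
  · exact e12_mem_of_xor hb (by omega) (hx n hn (by omega)) hbK (h _ (by omega))

theorem phi6_le (hK : phi 0 ≤ K) (h : rootE 6 ∈ K) : phi 6 ≤ K := by
  intro x _
  have hE1 := hK (hE_mem_phi0 1)
  have hE3 := hK (hE_mem_phi0 3)
  have h0 : e12 0 ∈ K := by rw [e12_zero]; exact K.one_mem
  have h1 : e12 1 ∈ K := by rw [e12_one]; exact hE1
  have h2 : e12 2 ∈ K := by rw [e12_root6]; exact h
  have h4 : e12 4 ∈ K := by
    have e := toNM_inj (NM.eq_of_beq eval4)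
    rw [← e]; exact evalW_mem hE1 hE3 h _
  have h8 : e12 8 ∈ K := by
    have e := toNM_inj (NM.eq_of_beq eval8)
    rw [← e]; exact evalW_mem hE1 hE3 h _
  have h16 : e12 16 ∈ K := by
    have e := toNM_inj (NM.eq_of_beq eval16)
    rw [← e]; exact evalW_mem hE1 hE3 h _
  have h32 : e12 32 ∈ K := by
    have e := toNM_inj (NM.eq_of_beq eval32)
    rw [← e]; exact evalW_mem hE1 hE3 h _
  have s0 : ∀ n, n < 1 → e12 n ∈ K := by
    intro n hn
    have : n = 0 := by omega
    rw [this]; exact h0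
  have s1 := double_step (b := 1) (by omega) h1 s0 (by decide)
  have s2 := double_step (b := 2) (by omega) h2 s1 (by decide)
  have s3 := double_step (b := 4) (by omega) h4 s2 (by decide)
  have s4 := double_step (b := 8) (by omega) h8 s3 (by decide)
  have s5 := double_step (b := 16) (by omega) h16 s4 (by decide)
  have s6 := double_step (b := 32) (by omega) h32 s5 (by decide)
  refine gen_sub subringOK_all invOK_all hE3 ?_ x ?_
  · intro t _
    rw [E12_eq_e12]
    exact s6 _ t.isLt
  · exact inMask_iff.2 ⟨allM_bit _ x.a.isLt, allM_bit _ x.b.isLt, allM_bit _ x.c.isLt,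
      allM_bit _ x.d.isLt⟩

theorem chain_mem {gE : SL2} (hg : gE ∈ K) :
    ∀ (l : List NM) (x : NM), (∃ z ∈ K, toNM z = x) → chainOK (toNM gE) (x :: l) = true →
      ∀ y, y ∈ x :: l → ∃ z ∈ K, toNM z = y := by
  intro l
  induction l with
  | nil =>
    intro x hx _ y hy
    rw [List.mem_singleton] at hy
    rw [hy]; exact hx
  | cons w l ih =>
    intro x hx hc y hy
    have hc' : and (NM.beq (NM.mul x (toNM gE)) w) (chainOK (toNM gE) (w :: l)) = true := hc
    rw [Bool.and_eq_true] at hc'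
    rcases List.mem_cons.1 hy with hy | hy
    · rw [hy]; exact hx
    · refine ih w ?_ hc'.2 y hy
      obtain ⟨z, hz, hzx⟩ := hx
      refine ⟨z * gE, K.mul_mem hz hg, ?_⟩
      rw [toNM_mul, hzx]
      exact NM.eq_of_beq hc'.1

/-- A dihedral subgroup is covered as soon as its rotations are in a list of elements of `K`. -/
theorem dih_le (hK : phi 0 ≤ K) {mask : Nat} {l : List NM} (hcover : powCover mask l = true)
    (hl : ∀ y, y ∈ l → ∃ z ∈ K, toNM z = y) (x : SL2) (hx : dp mask (toNM x) = true) : x ∈ K := by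
  have hT : ∀ y : SL2, isT (toNM y) = true → bit mask (lamT (toNM y)) = true → y ∈ K := by
    intro y h1 h2
    have hm : toNM y ∈ forms := mem_forms y (Or.inl h1)
    have h3 := List.all_eq_true.1 hcover _ hm
    rw [h1, h2] at h3
    have h4 := mem_list_of_any (l := l) (m := toNM y) (by simpa using h3)
    obtain ⟨z, hz, hzy⟩ := hl _ h4
    rw [← toNM_inj hzy]
    exact hz
  simp only [dp, Bool.or_eq_true, Bool.and_eq_true] at hx
  rcases hx with hx | hx
  · exact hT x hx.1 hx.2
  · have e : toNM (x * hE 3) = rmul 3 (toNM x) := toNM_mul_hE 3 x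
    obtain ⟨h1, h2⟩ := isR_val hx.1
    have hform : rmul 3 (toNM x) = ⟨(toNM x).b, (toNM x).a, (toNM x).a,
        Nat.xor (toNM x).a (toNM x).b⟩ := by
      show (⟨(toNM x).b, (toNM x).a, (toNM x).d, (toNM x).c⟩ : NM) = _
      rw [h1, h2]
    have h5 : isT (toNM (x * hE 3)) = true := by
      rw [e, hform]
      simp [isT, Nat.xor_comm]
    have h6' : bit mask (lamT (toNM (x * hE 3))) = true := by
      rw [e, hform]
      exact hx.2
    have h7 := hT _ h5 h6'
    have h8 : x = x * hE 3 * hE 3 := by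
      rw [mul_assoc]
      have : hE 3 * hE 3 = 1 := by
        refine SL2.ext ?_ ?_ ?_ ?_ <;> simp [hE]
      rw [this, mul_one]
    rw [h8]
    exact K.mul_mem h7 (hK (hE_mem_phi0 3))

theorem one_toNM_mem : ∃ z ∈ K, toNM z = ⟨1, 0, 0, 1⟩ := ⟨1, K.one_mem, rfl⟩

theorem phi5_le (hK : phi 0 ≤ K) (h : rootE 5 ∈ K) : phi 5 ≤ K := by
  intro x hx
  have hc : chainOK (toNM (rootE 5)) (⟨1, 0, 0, 1⟩ :: pow5.tail) = true := chain5
  exact dih_le hK cover5 (chain_mem h _ _ one_toNM_mem hc) x ((mem_phi 5 x).1 hx)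

theorem phi2_le (hK : phi 0 ≤ K) (h : rootE 2 ∈ K) : phi 2 ≤ K := by
  intro x hx
  have hg : rootE 2 * hE 1 ∈ K := K.mul_mem h (hK (hE_mem_phi0 1))
  have e : NM.beq (toNM (rootE 2 * hE 1)) ⟨22, 49, 49, 39⟩ = true := by decide +kernel
  have hc : chainOK (toNM (rootE 2 * hE 1)) (⟨1, 0, 0, 1⟩ :: pow2.tail) = true := by
    rw [NM.eq_of_beq e]; exact chain2
  exact dih_le hK cover2 (chain_mem hg _ _ one_toNM_mem hc) x ((mem_phi 2 x).1 hx)

theorem phi3_le (hK : phi 0 ≤ K) (h : rootE 3 ∈ K) : phi 3 ≤ K := by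
  intro x hx
  have hg : rootE 3 * hE 1 ∈ K := K.mul_mem h (hK (hE_mem_phi0 1))
  have e : NM.beq (toNM (rootE 3 * hE 1)) ⟨14, 25, 25, 23⟩ = true := by decide +kernel
  have hc : chainOK (toNM (rootE 3 * hE 1)) (⟨1, 0, 0, 1⟩ :: pow3.tail) = true := by
    rw [NM.eq_of_beq e]; exact chain3
  exact dih_le hK cover3 (chain_mem hg _ _ one_toNM_mem hc) x ((mem_phi 3 x).1 hx)

end Roots

/-- Labels are at most six. -/
theorem label_lt (m : NM) : label m < 7 := by
  unfold label labelL
  cases inMask F2m m <;> cases isT m <;> cases isR m <;> cases inMask F4m m <;>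
    cases inMask F8m m <;> cases bit C9m (lamT m) <;> cases bit C21m (lamT m) <;>
    cases bit C9m (lamR m) <;> cases bit C21m (lamR m) <;> decide

/-- A subgroup over SL(2,2) lies below `phi i` as soon as its roots do. -/
theorem K_le {K : Subgroup SL2} (hK : phi 0 ≤ K) (i : Nat)
    (h1 : rootE 1 ∈ K → phi 1 ≤ phi i) (h2 : rootE 2 ∈ K → phi 2 ≤ phi i)
    (h3 : rootE 3 ∈ K → phi 3 ≤ phi i) (h4 : rootE 4 ∈ K → phi 4 ≤ phi i)
    (h5 : rootE 5 ∈ K → phi 5 ≤ phi i) (h6 : rootE 6 ∈ K → phi 6 ≤ phi i) : K ≤ phi i := by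
  intro x hx
  have hH : ∀ j, hE j ∈ K := fun j => hK (hE_mem_phi0 j)
  have hc : canonE x ∈ K := canonE_mem hH hx
  have htoNM : toNM (canonE x) = canon (toNM x) := toNM_canonE x
  have hcm : canonE x ∈ phi (label (canon (toNM x))) := by
    rw [mem_phi, ← htoNM]
    exact label_mem _
  have hci : canonE x ∈ phi i := by
    generalize hl : label (canon (toNM x)) = l at hcm
    have hll : l < 7 := by rw [← hl]; exact label_lt _
    by_cases h0 : l = 0
    · rw [h0] at hcm
      exact phi0_le i hcm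
    · have hr : rootE l ∈ K := by
        have := root_mem_of_mem hH hx (by rw [hl]; exact h0)
        rwa [hl] at this
      interval_cases l
      · exact absurd rfl h0
      · exact h1 hr hcm
      · exact h2 hr hcm
      · exact h3 hr hcm
      · exact h4 hr hcm
      · exact h5 hr hcm
      · exact h6 hr hcm
  have hxe : x = canonE x * (hE (sel (toNM x)))⁻¹ := by
    simp [canonE]
  rw [hxe]
  exact (phi i).mul_mem hci ((phi i).inv_mem (phi0_le i (hE_mem_phi0 _)))

theorem root_mem_phi : ∀ l, l < 7 → l ≠ 0 → memB l (root l) = true := by decide +kernel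

theorem rootE_mem_phi {l : Nat} (h : l < 7) (h0 : l ≠ 0) : rootE l ∈ phi l := by
  rw [mem_phi, toNM_rootE]
  exact root_mem_phi l h h0

/-- Products of roots have the expected label. -/
theorem join12 : label (canon (NM.mul (root 1) (root 2))) = 6 := by decide +kernel
theorem join13 : label (canon (NM.mul (root 1) (root 3))) = 6 := by decide +kernel
theorem join23 : label (canon (NM.mul (root 2) (root 3))) = 5 := by decide +kernel
theorem join24 : label (canon (NM.mul (root 2) (root 4))) = 6 := by decide +kernel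

theorem join_mem {K : Subgroup SL2} (hK : phi 0 ≤ K) {i j l : Nat}
    (h : label (canon (NM.mul (root i) (root j))) = l) (hl : l ≠ 0)
    (hi : rootE i ∈ K) (hj : rootE j ∈ K) : rootE l ∈ K := by
  have hH : ∀ a, hE a ∈ K := fun a => hK (hE_mem_phi0 a)
  have hx := K.mul_mem hi hj
  have e : toNM (rootE i * rootE j) = NM.mul (root i) (root j) := by
    rw [toNM_mul, toNM_rootE, toNM_rootE]
  have := root_mem_of_mem hH hx (by rw [e, h]; exact hl)
  rwa [e, h] at this

/-- **Classification.** Every subgroup of SL(2,64) containing SL(2,2) is one of the seven. -/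
theorem classify (K : Subgroup SL2) (hK : phi 0 ≤ K) : ∃ i, i < 7 ∧ K = phi i := by
  by_cases r6 : rootE 6 ∈ K
  · refine ⟨6, by omega, le_antisymm ?_ (phi6_le hK r6)⟩
    intro x _
    exact Subgroup.mem_top x
  have n12 : rootE 1 ∈ K → rootE 2 ∈ K → False := fun a b =>
    r6 (join_mem hK join12 (by omega) a b)
  have n13 : rootE 1 ∈ K → rootE 3 ∈ K → False := fun a b =>
    r6 (join_mem hK join13 (by omega) a b)
  have n24 : rootE 2 ∈ K → rootE 4 ∈ K → False := fun a b =>
    r6 (join_mem hK join24 (by omega) a b)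
  have m23 : rootE 2 ∈ K → rootE 3 ∈ K → rootE 5 ∈ K := fun a b =>
    join_mem hK join23 (by omega) a b
  have m43 : rootE 4 ∈ K → rootE 3 ∈ K := fun a =>
    phi4_le hK a (phi3_le_both.2 (rootE_mem_phi (by omega) (by omega)))
  have m52 : rootE 5 ∈ K → rootE 2 ∈ K := fun a =>
    phi5_le hK a (phi2_le_phi5 (rootE_mem_phi (by omega) (by omega)))
  have m53 : rootE 5 ∈ K → rootE 3 ∈ K := fun a =>
    phi5_le hK a (phi3_le_both.1 (rootE_mem_phi (by omega) (by omega)))
  by_cases r1 : rootE 1 ∈ K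
  · refine ⟨1, by omega, le_antisymm ?_ (phi1_le hK r1)⟩
    refine K_le hK 1 (fun _ => le_rfl) (fun a => (n12 r1 a).elim) (fun a => (n13 r1 a).elim)
      (fun a => (n13 r1 (m43 a)).elim) (fun a => (n12 r1 (m52 a)).elim) (fun a => (r6 a).elim)
  by_cases r5 : rootE 5 ∈ K
  · refine ⟨5, by omega, le_antisymm ?_ (phi5_le hK r5)⟩
    refine K_le hK 5 (fun a => (r1 a).elim) (fun _ => phi2_le_phi5) (fun _ => phi3_le_both.1)
      (fun a => (n24 (m52 r5) a).elim) (fun _ => le_rfl) (fun a => (r6 a).elim)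
  by_cases r4 : rootE 4 ∈ K
  · refine ⟨4, by omega, le_antisymm ?_ (phi4_le hK r4)⟩
    refine K_le hK 4 (fun a => (r1 a).elim) (fun a => (n24 a r4).elim) (fun _ => phi3_le_both.2)
      (fun _ => le_rfl) (fun a => (r5 a).elim) (fun a => (r6 a).elim)
  by_cases r2 : rootE 2 ∈ K
  · refine ⟨2, by omega, le_antisymm ?_ (phi2_le hK r2)⟩
    refine K_le hK 2 (fun a => (r1 a).elim) (fun _ => le_rfl) (fun a => (r5 (m23 r2 a)).elim)
      (fun a => (r4 a).elim) (fun a => (r5 a).elim) (fun a => (r6 a).elim)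
  by_cases r3 : rootE 3 ∈ K
  · refine ⟨3, by omega, le_antisymm ?_ (phi3_le hK r3)⟩
    refine K_le hK 3 (fun a => (r1 a).elim) (fun a => (r2 a).elim) (fun _ => le_rfl)
      (fun a => (r4 a).elim) (fun a => (r5 a).elim) (fun a => (r6 a).elim)
  · refine ⟨0, by omega, le_antisymm ?_ hK⟩
    refine K_le hK 0 (fun a => (r1 a).elim) (fun a => (r2 a).elim) (fun a => (r3 a).elim)
      (fun a => (r4 a).elim) (fun a => (r5 a).elim) (fun a => (r6 a).elim)

end Vale.Agent.Lib.P183.L7
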