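import Vale.Agent.Lib.P183.L7.Kernel

/-! Kernel check of the descent certificate, part 1. -/

namespace Vale.Agent.Lib.P183.L7

/-- Kernel evaluation of one shard of the descent certificate. -/
theorem shard1_true : shardA 3 3 = true := by decide +kernel

end Vale.Agent.Lib.P183.L7
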