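import Vale.Agent.Lib.P183.L7.Group
import Vale.Agent.Lib.P183.L7.ShardZ
import Vale.Agent.Lib.P183.L7.Shard0
import Vale.Agent.Lib.P183.L7.Shard1
import Vale.Agent.Lib.P183.L7.Shard2
import Vale.Agent.Lib.P183.L7.Shard3
import Vale.Agent.Lib.P183.L7.Shard4
import Vale.Agent.Lib.P183.L7.Shard5
import Vale.Agent.Lib.P183.L7.Shard6
import Vale.Agent.Lib.P183.L7.Shard7
import Vale.Agent.Lib.P183.L7.Shard8

/-! The descent: if a subgroup contains SL(2,2) and a matrix of label `l`, it contains the root of
label `l`. -/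

namespace Vale.Agent.Lib.P183.L7

/-- The six elements of SL(2,2). -/
def hE : Nat → SL2
  | 0 => 1
  | 1 => ⟨1, 1, 0, 1, by simp⟩
  | 2 => ⟨1, 0, 1, 1, by simp⟩
  | 3 => ⟨0, 1, 1, 0, by simp⟩
  | 4 => ⟨0, 1, 1, 1, by simp⟩
  | _ => ⟨1, 1, 1, 0, by simp⟩

theorem toNM_hE_mul (i : Nat) (x : SL2) : toNM (hE i * x) = lmul i (toNM x) := by
  match i with
  | 0 => show toNM (1 * x) = toNM x; rw [one_mul]
  | 1 =>
    show toNM (hE 1 * x) = _
    simp only [toNM, hE, lmul, SL2.mul_a, SL2.mul_b, SL2.mul_c, SL2.mul_d, one_mul, zero_mul,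
      zero_add, F64.val_add]
  | 2 =>
    show toNM (hE 2 * x) = _
    simp only [toNM, hE, lmul, SL2.mul_a, SL2.mul_b, SL2.mul_c, SL2.mul_d, one_mul, zero_mul,
      add_zero, F64.val_add]
  | 3 =>
    show toNM (hE 3 * x) = _
    simp only [toNM, hE, lmul, SL2.mul_a, SL2.mul_b, SL2.mul_c, SL2.mul_d, one_mul, zero_mul,
      add_zero, zero_add]
  | 4 =>
    show toNM (hE 4 * x) = _
    simp only [toNM, hE, lmul, SL2.mul_a, SL2.mul_b, SL2.mul_c, SL2.mul_d, one_mul, zero_mul,
      add_zero, zero_add, F64.val_add]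
  | n + 5 =>
    show toNM (hE 5 * x) = lmul 5 (toNM x)
    simp only [toNM, hE, lmul, SL2.mul_a, SL2.mul_b, SL2.mul_c, SL2.mul_d, one_mul, zero_mul,
      add_zero, zero_add, F64.val_add]

theorem toNM_mul_hE (i : Nat) (x : SL2) : toNM (x * hE i) = rmul i (toNM x) := by
  match i with
  | 0 => show toNM (x * 1) = toNM x; rw [mul_one]
  | 1 =>
    show toNM (x * hE 1) = _
    simp only [toNM, hE, rmul, SL2.mul_a, SL2.mul_b, SL2.mul_c, SL2.mul_d, mul_one, mul_zero,
      add_zero, F64.val_add]
  | 2 =>
    show toNM (x * hE 2) = _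
    simp only [toNM, hE, rmul, SL2.mul_a, SL2.mul_b, SL2.mul_c, SL2.mul_d, mul_one, mul_zero,
      zero_add, F64.val_add]
  | 3 =>
    show toNM (x * hE 3) = _
    simp only [toNM, hE, rmul, SL2.mul_a, SL2.mul_b, SL2.mul_c, SL2.mul_d, mul_one, mul_zero,
      add_zero, zero_add]
  | 4 =>
    show toNM (x * hE 4) = _
    simp only [toNM, hE, rmul, SL2.mul_a, SL2.mul_b, SL2.mul_c, SL2.mul_d, mul_one, mul_zero,
      add_zero, zero_add, F64.val_add]
  | n + 5 =>
    show toNM (x * hE 5) = rmul 5 (toNM x)
    simp only [toNM, hE, rmul, SL2.mul_a, SL2.mul_b, SL2.mul_c, SL2.mul_d, mul_one, mul_zero,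
      add_zero, zero_add, F64.val_add]

/-- The word numbered `ty` in the group. -/
def wordE (ty : Nat) (x : SL2) : SL2 :=
  cond (Nat.blt ty 6) (hE ty * x)
    (cond (Nat.blt ty 12) (hE (Nat.sub ty 6) * x⁻¹)
      ((hE (Nat.div (Nat.mod (Nat.sub ty 12) 36) 6) * x *
          hE (Nat.mod (Nat.mod (Nat.sub ty 12) 36) 6)) *
        (cond (Nat.blt (Nat.sub ty 12) 36) x x⁻¹)))

theorem toNM_wordE (ty : Nat) (x : SL2) : toNM (wordE ty x) = word ty (toNM x) := by
  unfold wordE word
  cases Nat.blt ty 6
  · cases Nat.blt ty 12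
    · cases Nat.blt (Nat.sub ty 12) 36
      · simp only [cond_false]
        rw [toNM_mul, toNM_mul_hE, toNM_hE_mul, toNM_inv]
      · simp only [cond_false, cond_true]
        rw [toNM_mul, toNM_mul_hE, toNM_hE_mul]
    · simp only [cond_false, cond_true]
      rw [toNM_hE_mul, toNM_inv]
  · simp only [cond_true]
    rw [toNM_hE_mul]

/-- The sorted representative of the right coset of `x`. -/
def canonE (x : SL2) : SL2 := x * hE (sel (toNM x))

theorem toNM_canonE (x : SL2) : toNM (canonE x) = canon (toNM x) := toNM_mul_hE _ _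

section NatFacts

theorem xor_aab (a b : Nat) : Nat.xor a (Nat.xor a b) = b := by
  show a ^^^ (a ^^^ b) = b
  rw [← Nat.xor_assoc, Nat.xor_self, Nat.zero_xor]

theorem xor_aba (a b : Nat) : Nat.xor (Nat.xor a b) a = b := by
  show (a ^^^ b) ^^^ a = b
  rw [Nat.xor_comm, ← Nat.xor_assoc, Nat.xor_self, Nat.zero_xor]

theorem xor_bab (a b : Nat) : Nat.xor b (Nat.xor a b) = a := by
  show b ^^^ (a ^^^ b) = a
  rw [Nat.xor_comm a b, ← Nat.xor_assoc, Nat.xor_self, Nat.zero_xor]

theorem xor_abb (a b : Nat) : Nat.xor (Nat.xor a b) b = a := by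
  show (a ^^^ b) ^^^ b = a
  rw [Nat.xor_assoc, Nat.xor_self, Nat.xor_zero]

theorem xor_ba (a b : Nat) : Nat.xor b a = Nat.xor a b := Nat.xor_comm _ _

theorem ble_true {a b : Nat} (h : a ≤ b) : Nat.ble a b = true := Nat.ble_eq_true_of_le h

theorem sorted_canon (m : NM) : sorted (canon m) = true := by
  obtain ⟨a, b, c, d⟩ := m
  unfold canon sel selK
  dsimp only
  generalize hk1 : key a c = k1
  generalize hk2 : key b d = k2
  generalize hk3 : key (Nat.xor a b) (Nat.xor c d) = k3
  cases h12 : Nat.ble k1 k2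
  · have h12' : k2 ≤ k1 := by
      have : ¬ k1 ≤ k2 := fun h => by rw [ble_true h] at h12; exact Bool.noConfusion h12
      omega
    cases h13 : Nat.ble k1 k3
    · have h13' : k3 ≤ k1 := by
        have : ¬ k1 ≤ k3 := fun h => by rw [ble_true h] at h13; exact Bool.noConfusion h13
        omega
      cases h23 : Nat.ble k2 k3
      · have h23' : k3 ≤ k2 := by
          have : ¬ k2 ≤ k3 := fun h => by rw [ble_true h] at h23; exact Bool.noConfusion h23
          omega
        simp only [cond_false, rmul, sorted, xor_abb, hk1, hk2, hk3]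
        rw [ble_true h23', ble_true h12']; rfl
      · have h23' : k2 ≤ k3 := Nat.le_of_ble_eq_true h23
        simp only [cond_false, cond_true, rmul, sorted, xor_bab, hk1, hk2, hk3]
        rw [ble_true h23', ble_true h13']; rfl
    · have h13' : k1 ≤ k3 := Nat.le_of_ble_eq_true h13
      simp only [cond_false, cond_true, rmul, sorted, xor_ba, hk1, hk2, hk3]
      rw [ble_true h12', ble_true h13']; rfl
  · have h12' : k1 ≤ k2 := Nat.le_of_ble_eq_true h12
    cases h23 : Nat.ble k2 k3
    · have h23' : k3 ≤ k2 := by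
        have : ¬ k2 ≤ k3 := fun h => by rw [ble_true h] at h23; exact Bool.noConfusion h23
        omega
      cases h13 : Nat.ble k1 k3
      · have h13' : k3 ≤ k1 := by
          have : ¬ k1 ≤ k3 := fun h => by rw [ble_true h] at h13; exact Bool.noConfusion h13
          omega
        simp only [cond_false, cond_true, rmul, sorted, xor_aba, hk1, hk2, hk3]
        rw [ble_true h13', ble_true h12']; rfl
      · have h13' : k1 ≤ k3 := Nat.le_of_ble_eq_true h13
        simp only [cond_false, cond_true, rmul, sorted, xor_aab, hk1, hk2, hk3]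
        rw [ble_true h13', ble_true h23']; rfl
    · have h23' : k2 ≤ k3 := Nat.le_of_ble_eq_true h23
      simp only [cond_true, rmul, sorted, hk1, hk2, hk3]
      rw [ble_true h12', ble_true h23']; rfl

end NatFacts

theorem forceN_eq (n : Nat) (k : Nat → Bool) : forceN n k = k n := by
  cases n <;> rfl

theorem NM.force_eq (m : NM) (k : NM → Bool) : m.force k = k m := by
  obtain ⟨a, b, c, d⟩ := m
  simp only [NM.force, forceN_eq]

theorem NM.eq_of_beq {x y : NM} (h : NM.beq x y = true) : x = y := by
  obtain ⟨a, b, c, d⟩ := x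
  obtain ⟨a', b', c', d'⟩ := y
  simp only [NM.beq, Bool.and_eq_true] at h
  obtain ⟨h1, h2, h3, h4⟩ := h
  rw [Nat.eq_of_beq_eq_true h1, Nat.eq_of_beq_eq_true h2, Nat.eq_of_beq_eq_true h3,
    Nat.eq_of_beq_eq_true h4]

/-- What the check says about a sorted matrix of nonzero label. -/
theorem chk_spec {m : NM} (h : chk m = true) (hs : sorted m = true) (hl : label m ≠ 0) :
    (rankE (entry m) = 0 ∧ m = root (label m)) ∨
      (label (canon (word (typeE (entry m)) m)) = label m ∧
        rankE (entry (canon (word (typeE (entry m)) m))) < rankE (entry m)) := by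
  unfold chk at h
  rw [hs, cond_true, forceN_eq] at h
  have hl' : Nat.beq (label m) 0 = false := by
    cases hb : Nat.beq (label m) 0
    · rfl
    · exact absurd (Nat.eq_of_beq_eq_true hb) hl
  rw [hl', cond_false, forceN_eq] at h
  cases hr : Nat.beq (rankE (entry m)) 0
  · rw [hr, cond_false, NM.force_eq, NM.force_eq, Bool.and_eq_true] at h
    right
    refine ⟨Nat.eq_of_beq_eq_true h.1, ?_⟩
    exact Nat.lt_of_succ_le (Nat.le_of_ble_eq_true h.2)
  · rw [hr, cond_true] at h
    left
    exact ⟨Nat.eq_of_beq_eq_true hr, NM.eq_of_beq h⟩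

/-- The six elements of SL(2,2) lie in a subgroup containing them. -/
theorem wordE_mem {K : Subgroup SL2} (hH : ∀ i, hE i ∈ K) {x : SL2} (hx : x ∈ K) (ty : Nat) :
    wordE ty x ∈ K := by
  unfold wordE
  cases Nat.blt ty 6
  · cases Nat.blt ty 12
    · cases Nat.blt (Nat.sub ty 12) 36
      · exact K.mul_mem (K.mul_mem (K.mul_mem (hH _) hx) (hH _)) (K.inv_mem hx)
      · exact K.mul_mem (K.mul_mem (K.mul_mem (hH _) hx) (hH _)) hx
    · exact K.mul_mem (hH _) (K.inv_mem hx)
  · exact K.mul_mem (hH _) hx

theorem canonE_mem {K : Subgroup SL2} (hH : ∀ i, hE i ∈ K) {x : SL2} (hx : x ∈ K) :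
    canonE x ∈ K := K.mul_mem hx (hH _)

theorem chkA_all {a : Nat} (h1 : 1 ≤ a) (h2 : a < 64) : chkA a = true := by
  have key : ∀ {lo n : Nat}, shardA lo n = true → lo ≤ a → a < lo + n → chkA a = true := by
    intro lo n h hlo hhi
    have := loop_spec h (a - lo) (by omega)
    have hadd : Nat.add lo (a - lo) = a := by
      show lo + (a - lo) = a
      omega
    rwa [hadd] at this
  by_cases h3 : a < 3
  · exact key shard0_true (by omega) (by omega)
  by_cases h4 : a < 6
  · exact key shard1_true (by omega) (by omega)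
  by_cases h5 : a < 9
  · exact key shard2_true (by omega) (by omega)
  by_cases h6 : a < 13
  · exact key shard3_true (by omega) (by omega)
  by_cases h7 : a < 17
  · exact key shard4_true (by omega) (by omega)
  by_cases h8 : a < 22
  · exact key shard5_true (by omega) (by omega)
  by_cases h9 : a < 27
  · exact key shard6_true (by omega) (by omega)
  by_cases h10 : a < 32
  · exact key shard7_true (by omega) (by omega)
  · exact key shard8_true (by omega) (by omega)

/-- A sorted matrix has upper row `(a, b)` with `a ≤ b ≤ a + b`. -/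
theorem sorted_bounds {a b c d : Nat} (hc : c < 64) (hd : d < 64)
    (hs : sorted ⟨a, b, c, d⟩ = true) : a ≤ b ∧ b ≤ Nat.xor a b := by
  simp only [sorted, Bool.and_eq_true] at hs
  have h1 := Nat.le_of_ble_eq_true hs.1
  have h2 := Nat.le_of_ble_eq_true hs.2
  have h3 : Nat.xor c d < 64 := xor_lt hc hd
  simp only [key, Nat.add_eq, Nat.mul_eq] at h1 h2
  constructor <;> omega

/-- The certificate holds for every matrix of the group. -/
theorem chk_all (x : SL2) : chk (toNM x) = true := by
  by_cases hs : sorted (toNM x) = true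
  · by_cases ha : x.a = 0
    · have hdet : x.b * x.c = 1 := by
        have := x.det
        rw [ha, zero_mul, zero_add] at this
        exact this
      have hb : x.b ≠ 0 := by
        intro h0
        rw [h0, zero_mul] at hdet
        have : (0 : F64).val = (1 : F64).val := congrArg F64.val hdet
        simp at this
      have hc : x.c = F64.inv x.b := by
        have h1 := F64.mul_inv hb
        linear_combination (F64.inv x.b) * hdet - x.c * h1
      have hbval : x.b.val ≠ 0 := fun h => hb (F64.ext h)
      have hz := loop_spec shardZ_true x.b.val x.b.isLt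
      unfold chkZ at hz
      have hb' : Nat.beq x.b.val 0 = false := by
        cases hbb : Nat.beq x.b.val 0
        · rfl
        · exact absurd (Nat.eq_of_beq_eq_true hbb) hbval
      rw [hb', cond_false, forceN_eq] at hz
      have := loop_spec hz x.d.val x.d.isLt
      have hae : x.a.val = 0 := congrArg F64.val ha
      have hce : x.c.val = finv x.b.val := congrArg F64.val hc
      show chk ⟨x.a.val, x.b.val, x.c.val, x.d.val⟩ = true
      rw [hae, hce]
      exact this
    · have hav : x.a.val ≠ 0 := fun h => ha (F64.ext h)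
      have hA := chkA_all (a := x.a.val) (by omega) x.a.isLt
      have hB := loop_spec hA x.b.val x.b.isLt
      unfold chkAB at hB
      have hbd := sorted_bounds x.c.isLt x.d.isLt hs
      rw [ble_true hbd.1, ble_true hbd.2] at hB
      simp only [Bool.and_self, cond_true] at hB
      have hC := loop_spec hB x.c.val x.c.isLt
      rw [forceN_eq] at hC
      have hd : x.d = F64.inv x.a * (1 + x.b * x.c) := by
        have h1 := F64.mul_inv ha
        have h2 := x.det
        have h3 := F64.two_eq_zero
        linear_combination (-x.d) * h1 + (F64.inv x.a) * h2 - (F64.inv x.a * x.b * x.c) * h3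
      have hde : x.d.val = fmul (finv x.a.val) (Nat.xor 1 (fmul x.b.val x.c.val)) :=
        congrArg F64.val hd
      show chk ⟨x.a.val, x.b.val, x.c.val, x.d.val⟩ = true
      rw [hde]
      exact hC
  · have : sorted (toNM x) = false := by
      cases h : sorted (toNM x)
      · rfl
      · exact absurd h hs
    unfold chk
    rw [this]
    rfl

/-- The element of the group attached to a root. -/
def rootE : Nat → SL2
  | 1 => ⟨1, ⟨58, by omega⟩, 0, 1, F64.ext (by decide +kernel)⟩
  | 2 => ⟨⟨22, by omega⟩, ⟨39, by omega⟩, ⟨49, by omega⟩, ⟨22, by omega⟩, F64.ext (by decide +kernel)⟩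
  | 3 => ⟨⟨14, by omega⟩, ⟨23, by omega⟩, ⟨25, by omega⟩, ⟨14, by omega⟩, F64.ext (by decide +kernel)⟩
  | 4 => ⟨1, ⟨24, by omega⟩, 0, 1, F64.ext (by decide +kernel)⟩
  | 5 => ⟨⟨11, by omega⟩, ⟨35, by omega⟩, ⟨35, by omega⟩, ⟨40, by omega⟩, F64.ext (by decide +kernel)⟩
  | _ => ⟨1, ⟨2, by omega⟩, 0, 1, F64.ext (by decide +kernel)⟩

theorem toNM_rootE (l : Nat) : toNM (rootE l) = root l := by
  match l with
  | 1 => rfl
  | 2 => rfl
  | 3 => rfl
  | 4 => rfl
  | 5 => rfl
  | 0 => rfl
  | n + 6 => rfl

/-- **Descent.** A subgroup containing SL(2,2) and a sorted matrix of nonzero label contains the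
root of that label. -/
theorem descent {K : Subgroup SL2} (hH : ∀ i, hE i ∈ K) :
    ∀ (n : Nat) (x : SL2), sorted (toNM x) = true → label (toNM x) ≠ 0 →
      rankE (entry (toNM x)) ≤ n → x ∈ K → rootE (label (toNM x)) ∈ K := by
  intro n
  induction n with
  | zero =>
    intro x hs hl hr hx
    rcases chk_spec (chk_all x) hs hl with h | h
    · have : x = rootE (label (toNM x)) := toNM_inj (by rw [toNM_rootE]; exact h.2)
      rw [← this]; exact hx
    · omega
  | succ n ih =>
    intro x hs hl hr hx
    rcases chk_spec (chk_all x) hs hl with h | h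
    · have : x = rootE (label (toNM x)) := toNM_inj (by rw [toNM_rootE]; exact h.2)
      rw [← this]; exact hx
    · obtain ⟨h1, h2⟩ := h
      let y := canonE (wordE (typeE (entry (toNM x))) x)
      have hy : toNM y = canon (word (typeE (entry (toNM x))) (toNM x)) := by
        show toNM (canonE _) = _
        rw [toNM_canonE, toNM_wordE]
      have hyK : y ∈ K := canonE_mem hH (wordE_mem hH hx _)
      have hsy : sorted (toNM y) = true := by rw [hy]; exact sorted_canon _
      have hly : label (toNM y) = label (toNM x) := by rw [hy]; exact h1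
      have := ih y hsy (by rw [hly]; exact hl) (by rw [hy]; omega) hyK
      rwa [hly] at this

/-- The label of a matrix of the subgroup, read on its sorted representative, gives a root in the
subgroup. -/
theorem root_mem_of_mem {K : Subgroup SL2} (hH : ∀ i, hE i ∈ K) {x : SL2} (hx : x ∈ K)
    (hl : label (canon (toNM x)) ≠ 0) : rootE (label (canon (toNM x))) ∈ K := by
  have h1 : toNM (canonE x) = canon (toNM x) := toNM_canonE x
  have := descent hH _ (canonE x) (by rw [h1]; exact sorted_canon _) (by rw [h1]; exact hl)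
    (Nat.le_refl _) (canonE_mem hH hx)
  rwa [h1] at this

end Vale.Agent.Lib.P183.L7
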