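import Vale.Agent.Lib.P183.L7.Kernel

/-! Kernel checks of the field axioms of the multiplication table. -/

namespace Vale.Agent.Lib.P183.L7

theorem loop_spec {f : Nat → Bool} {n : Nat} (h : loop f n = true) :
    ∀ k, k < n → f k = true := by
  induction n with
  | zero => intro k hk; exact absurd hk (Nat.not_lt_zero k)
  | succ n ih =>
    have h' : and (f n) (loop f n) = true := h
    rw [Bool.and_eq_true] at h'
    intro k hk
    rcases Nat.lt_succ_iff_lt_or_eq.1 hk with hk | rfl
    · exact ih h'.2 k hk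
    · exact h'.1

/-- Associativity check for first arguments `8 q, …, 8 q + 7`. -/
def chkAssoc (q : Nat) : Bool :=
  loop (fun r => forceN (Nat.add (Nat.mul 8 q) r) fun a => loop (fun b => loop (fun c =>
    Nat.beq (fmul (fmul a b) c) (fmul a (fmul b c))) 64) 64) 8

/-- Commutativity check. -/
def chkComm : Bool :=
  loop (fun a => loop (fun b => Nat.beq (fmul a b) (fmul b a)) 64) 64

/-- Unit check. -/
def chkOne : Bool := loop (fun a => Nat.beq (fmul 1 a) a) 64

/-- Distributivity check for first arguments `8 q, …, 8 q + 7`. -/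
def chkDistrib (q : Nat) : Bool :=
  loop (fun r => forceN (Nat.add (Nat.mul 8 q) r) fun a => loop (fun b => loop (fun c =>
    Nat.beq (fmul a (Nat.xor b c)) (Nat.xor (fmul a b) (fmul a c))) 64) 64) 8

/-- Inverse check. -/
def chkInv : Bool := loop (fun a => Nat.beq (fmul (Nat.add a 1) (finv (Nat.add a 1))) 1) 63

theorem chkAssoc_0 : chkAssoc 0 = true := by decide +kernel
theorem chkAssoc_1 : chkAssoc 1 = true := by decide +kernel
theorem chkAssoc_2 : chkAssoc 2 = true := by decide +kernel
theorem chkAssoc_3 : chkAssoc 3 = true := by decide +kernel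
theorem chkAssoc_4 : chkAssoc 4 = true := by decide +kernel
theorem chkAssoc_5 : chkAssoc 5 = true := by decide +kernel
theorem chkAssoc_6 : chkAssoc 6 = true := by decide +kernel
theorem chkAssoc_7 : chkAssoc 7 = true := by decide +kernel
theorem chkComm_true : chkComm = true := by decide +kernel
theorem chkOne_true : chkOne = true := by decide +kernel
theorem chkDistrib_0 : chkDistrib 0 = true := by decide +kernel
theorem chkDistrib_1 : chkDistrib 1 = true := by decide +kernel
theorem chkDistrib_2 : chkDistrib 2 = true := by decide +kernel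
theorem chkDistrib_3 : chkDistrib 3 = true := by decide +kernel
theorem chkDistrib_4 : chkDistrib 4 = true := by decide +kernel
theorem chkDistrib_5 : chkDistrib 5 = true := by decide +kernel
theorem chkDistrib_6 : chkDistrib 6 = true := by decide +kernel
theorem chkDistrib_7 : chkDistrib 7 = true := by decide +kernel
theorem chkInv_true : chkInv = true := by decide +kernel

theorem chkAssoc_all : ∀ q, q < 8 → chkAssoc q = true := by
  intro q hq
  have : q = 0 ∨ q = 1 ∨ q = 2 ∨ q = 3 ∨ q = 4 ∨ q = 5 ∨ q = 6 ∨ q = 7 := by omega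
  rcases this with rfl | rfl | rfl | rfl | rfl | rfl | rfl | rfl
  · exact chkAssoc_0
  · exact chkAssoc_1
  · exact chkAssoc_2
  · exact chkAssoc_3
  · exact chkAssoc_4
  · exact chkAssoc_5
  · exact chkAssoc_6
  · exact chkAssoc_7

theorem chkDistrib_all : ∀ q, q < 8 → chkDistrib q = true := by
  intro q hq
  have : q = 0 ∨ q = 1 ∨ q = 2 ∨ q = 3 ∨ q = 4 ∨ q = 5 ∨ q = 6 ∨ q = 7 := by omega
  rcases this with rfl | rfl | rfl | rfl | rfl | rfl | rfl | rfl
  · exact chkDistrib_0
  · exact chkDistrib_1
  · exact chkDistrib_2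
  · exact chkDistrib_3
  · exact chkDistrib_4
  · exact chkDistrib_5
  · exact chkDistrib_6
  · exact chkDistrib_7

theorem forceN_eq' {n : Nat} {k : Nat → Bool} : forceN n k = k n := by
  cases n <;> rfl

theorem fmul_assoc' {a b c : Nat} (ha : a < 64) (hb : b < 64) (hc : c < 64) :
    fmul (fmul a b) c = fmul a (fmul b c) := by
  have h1 := loop_spec (chkAssoc_all (a / 8) (by omega)) (a % 8) (Nat.mod_lt _ (by omega))
  rw [forceN_eq'] at h1
  have e : Nat.add (Nat.mul 8 (a / 8)) (a % 8) = a := Nat.div_add_mod a 8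
  rw [e] at h1
  exact Nat.eq_of_beq_eq_true (loop_spec (loop_spec h1 b hb) c hc)

theorem fmul_comm' {a b : Nat} (ha : a < 64) (hb : b < 64) : fmul a b = fmul b a :=
  Nat.eq_of_beq_eq_true (loop_spec (loop_spec chkComm_true a ha) b hb)

theorem fmul_one' {a : Nat} (ha : a < 64) : fmul 1 a = a :=
  Nat.eq_of_beq_eq_true (loop_spec chkOne_true a ha)

theorem fmul_distrib' {a b c : Nat} (ha : a < 64) (hb : b < 64) (hc : c < 64) :
    fmul a (Nat.xor b c) = Nat.xor (fmul a b) (fmul a c) := by
  have h1 := loop_spec (chkDistrib_all (a / 8) (by omega)) (a % 8) (Nat.mod_lt _ (by omega))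
  rw [forceN_eq'] at h1
  have e : Nat.add (Nat.mul 8 (a / 8)) (a % 8) = a := Nat.div_add_mod a 8
  rw [e] at h1
  exact Nat.eq_of_beq_eq_true (loop_spec (loop_spec h1 b hb) c hc)

theorem fmul_inv' {a : Nat} (ha : a < 64) (h0 : a ≠ 0) : fmul a (finv a) = 1 := by
  obtain ⟨k, rfl⟩ : ∃ k, a = k + 1 := ⟨a - 1, by omega⟩
  exact Nat.eq_of_beq_eq_true (loop_spec chkInv_true k (by omega))

end Vale.Agent.Lib.P183.L7
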