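import Mathlib
import Vale.Agent.Lib.P183.L7.FieldChecks

/-! The field with 64 elements and the group SL(2,64), on top of the kernel arithmetic. -/

namespace Vale.Agent.Lib.P183.L7

/-- The field with 64 elements, as natural numbers below 64. -/
@[ext] structure F64 where
  /-- The underlying natural number. -/
  val : Nat
  /-- It is below 64. -/
  isLt : val < 64

theorem fmul_lt (a b : Nat) : fmul a b < 64 := by
  have : Nat.land (Nat.shiftRight mulTab (Nat.add (Nat.mul 384 a) (Nat.mul 6 b))) 63 ≤ 63 :=
    Nat.and_le_right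
  exact Nat.lt_succ_of_le this

theorem finv_lt (a : Nat) : finv a < 64 := by
  have : Nat.land (Nat.shiftRight invTab (Nat.mul 6 a)) 63 ≤ 63 := Nat.and_le_right
  exact Nat.lt_succ_of_le this

theorem xor_lt {a b : Nat} (ha : a < 64) (hb : b < 64) : Nat.xor a b < 64 :=
  Nat.xor_lt_two_pow (n := 6) ha hb

namespace F64

instance : Zero F64 := ⟨⟨0, by omega⟩⟩
instance : One F64 := ⟨⟨1, by omega⟩⟩
instance : Add F64 := ⟨fun x y => ⟨Nat.xor x.val y.val, xor_lt x.isLt y.isLt⟩⟩
instance : Mul F64 := ⟨fun x y => ⟨fmul x.val y.val, fmul_lt _ _⟩⟩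
instance : Neg F64 := ⟨fun x => x⟩

@[simp] theorem val_add (x y : F64) : (x + y).val = Nat.xor x.val y.val := rfl
@[simp] theorem val_mul (x y : F64) : (x * y).val = fmul x.val y.val := rfl
@[simp] theorem val_zero : (0 : F64).val = 0 := rfl
@[simp] theorem val_one : (1 : F64).val = 1 := rfl

theorem add_assoc' (x y z : F64) : x + y + z = x + (y + z) := by
  ext; exact Nat.xor_assoc _ _ _

theorem zero_add' (x : F64) : 0 + x = x := by
  ext; exact Nat.zero_xor _

theorem neg_add_cancel' (x : F64) : -x + x = 0 := by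
  ext; exact Nat.xor_self _

theorem mul_assoc' (x y z : F64) : x * y * z = x * (y * z) := by
  ext; exact fmul_assoc' x.isLt y.isLt z.isLt

theorem mul_comm' (x y : F64) : x * y = y * x := by
  ext; exact fmul_comm' x.isLt y.isLt

theorem one_mul' (x : F64) : 1 * x = x := by
  ext; exact fmul_one' x.isLt

theorem left_distrib' (x y z : F64) : x * (y + z) = x * y + x * z := by
  ext; exact fmul_distrib' x.isLt y.isLt z.isLt

instance : CommRing F64 :=
  CommRing.ofMinimalAxioms add_assoc' zero_add' neg_add_cancel' mul_assoc' mul_comm' one_mul'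
    left_distrib'

/-- Inversion, with `0` sent to `0`. -/
def inv (x : F64) : F64 := ⟨finv x.val, finv_lt _⟩

theorem mul_inv {x : F64} (h : x ≠ 0) : x * inv x = 1 := by
  ext
  exact fmul_inv' x.isLt (fun h0 => h (by ext; exact h0))

theorem add_self' (x : F64) : x + x = 0 := by
  ext; exact Nat.xor_self _

theorem two_eq_zero : (2 : F64) = 0 := by
  have : (2 : F64) = 1 + 1 := by norm_num
  rw [this]; exact add_self' 1

end F64

/-- The group SL(2,64), with matrices written `(a, b; c, d)`. -/
@[ext] structure SL2 where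
  /-- Upper left entry. -/
  a : F64
  /-- Upper right entry. -/
  b : F64
  /-- Lower left entry. -/
  c : F64
  /-- Lower right entry. -/
  d : F64
  /-- Determinant one, using that the characteristic is two. -/
  det : a * d + b * c = 1

namespace SL2

/-- Matrix product. -/
def mul' (x y : SL2) : SL2 where
  a := x.a * y.a + x.b * y.c
  b := x.a * y.b + x.b * y.d
  c := x.c * y.a + x.d * y.c
  d := x.c * y.b + x.d * y.d
  det := by
    have h1 := x.det
    have h2 := y.det
    have h3 := F64.two_eq_zero
    linear_combination (y.a * y.d + y.b * y.c) * h1 + h2 +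
      (x.a * y.a * x.c * y.b + x.b * y.c * x.d * y.d) * h3

instance : Mul SL2 := ⟨mul'⟩
instance : One SL2 := ⟨⟨1, 0, 0, 1, by simp⟩⟩
instance : Inv SL2 := ⟨fun x => ⟨x.d, x.b, x.c, x.a, by have := x.det; linear_combination this⟩⟩

@[simp] theorem mul_a (x y : SL2) : (x * y).a = x.a * y.a + x.b * y.c := rfl
@[simp] theorem mul_b (x y : SL2) : (x * y).b = x.a * y.b + x.b * y.d := rfl
@[simp] theorem mul_c (x y : SL2) : (x * y).c = x.c * y.a + x.d * y.c := rfl
@[simp] theorem mul_d (x y : SL2) : (x * y).d = x.c * y.b + x.d * y.d := rfl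
@[simp] theorem one_a : (1 : SL2).a = 1 := rfl
@[simp] theorem one_b : (1 : SL2).b = 0 := rfl
@[simp] theorem one_c : (1 : SL2).c = 0 := rfl
@[simp] theorem one_d : (1 : SL2).d = 1 := rfl
@[simp] theorem inv_a (x : SL2) : (x⁻¹).a = x.d := rfl
@[simp] theorem inv_b (x : SL2) : (x⁻¹).b = x.b := rfl
@[simp] theorem inv_c (x : SL2) : (x⁻¹).c = x.c := rfl
@[simp] theorem inv_d (x : SL2) : (x⁻¹).d = x.a := rfl

instance : Group SL2 :=
  Group.ofLeftAxioms
    (by
      intro x y z
      refine SL2.ext ?_ ?_ ?_ ?_ <;> simp only [mul_a, mul_b, mul_c, mul_d] <;> ring)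
    (by
      intro x
      refine SL2.ext ?_ ?_ ?_ ?_ <;> simp)
    (by
      intro x
      have h1 := x.det
      have h3 := F64.two_eq_zero
      refine SL2.ext ?_ ?_ ?_ ?_
      · simp only [mul_a, inv_a, inv_b, one_a]; linear_combination h1
      · simp only [mul_b, inv_a, inv_b, one_b]; linear_combination (x.b * x.d) * h3
      · simp only [mul_c, inv_c, inv_d, one_c]; linear_combination (x.a * x.c) * h3
      · simp only [mul_d, inv_c, inv_d, one_d]; linear_combination h1)

end SL2

/-- The entries of a matrix as natural numbers. -/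
def toNM (x : SL2) : NM := ⟨x.a.val, x.b.val, x.c.val, x.d.val⟩

theorem toNM_inj {x y : SL2} (h : toNM x = toNM y) : x = y := by
  have ha : x.a.val = y.a.val := congrArg NM.a h
  have hb : x.b.val = y.b.val := congrArg NM.b h
  have hc : x.c.val = y.c.val := congrArg NM.c h
  have hd : x.d.val = y.d.val := congrArg NM.d h
  exact SL2.ext (F64.ext ha) (F64.ext hb) (F64.ext hc) (F64.ext hd)

theorem toNM_mul (x y : SL2) : toNM (x * y) = NM.mul (toNM x) (toNM y) := rfl

theorem toNM_inv (x : SL2) : toNM x⁻¹ = NM.inv (toNM x) := rfl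

end Vale.Agent.Lib.P183.L7
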