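import Vale.Agent.Lib.P183.L7.Tables

/-! Kernel-evaluated arithmetic for the group SL(2,64): entries are natural numbers below 64,
addition is `Nat.xor`, multiplication is read from a table. -/

namespace Vale.Agent.Lib.P183.L7

/-- Multiplication in the field with 64 elements on natural numbers below 64. -/
def fmul (a b : Nat) : Nat :=
  Nat.land (Nat.shiftRight mulTab (Nat.add (Nat.mul 384 a) (Nat.mul 6 b))) 63

/-- Inversion in the field with 64 elements on natural numbers below 64. -/
def finv (a : Nat) : Nat := Nat.land (Nat.shiftRight invTab (Nat.mul 6 a)) 63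

/-- A two by two matrix with natural number entries. -/
structure NM where
  /-- Upper left entry. -/
  a : Nat
  /-- Upper right entry. -/
  b : Nat
  /-- Lower left entry. -/
  c : Nat
  /-- Lower right entry. -/
  d : Nat

/-- Matrix product. -/
def NM.mul (x y : NM) : NM :=
  ⟨Nat.xor (fmul x.a y.a) (fmul x.b y.c), Nat.xor (fmul x.a y.b) (fmul x.b y.d),
   Nat.xor (fmul x.c y.a) (fmul x.d y.c), Nat.xor (fmul x.c y.b) (fmul x.d y.d)⟩

/-- Matrix inverse in determinant one and characteristic two. -/
def NM.inv (x : NM) : NM := ⟨x.d, x.b, x.c, x.a⟩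

/-- Left multiplication by the `i`-th element of SL(2,2). -/
def lmul : Nat → NM → NM
  | 0, x => x
  | 1, x => ⟨Nat.xor x.a x.c, Nat.xor x.b x.d, x.c, x.d⟩
  | 2, x => ⟨x.a, x.b, Nat.xor x.a x.c, Nat.xor x.b x.d⟩
  | 3, x => ⟨x.c, x.d, x.a, x.b⟩
  | 4, x => ⟨x.c, x.d, Nat.xor x.a x.c, Nat.xor x.b x.d⟩
  | _, x => ⟨Nat.xor x.a x.c, Nat.xor x.b x.d, x.a, x.b⟩

/-- Right multiplication by the `i`-th element of SL(2,2). -/
def rmul : Nat → NM → NM
  | 0, x => x
  | 1, x => ⟨x.a, Nat.xor x.a x.b, x.c, Nat.xor x.c x.d⟩
  | 2, x => ⟨Nat.xor x.a x.b, x.b, Nat.xor x.c x.d, x.d⟩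
  | 3, x => ⟨x.b, x.a, x.d, x.c⟩
  | 4, x => ⟨x.b, Nat.xor x.a x.b, x.d, Nat.xor x.c x.d⟩
  | _, x => ⟨Nat.xor x.a x.b, x.a, Nat.xor x.c x.d, x.c⟩

/-- Evaluate a natural number before passing it on. -/
def forceN (n : Nat) (k : Nat → Bool) : Bool :=
  match n with
  | 0 => k 0
  | m + 1 => k (Nat.succ m)

/-- Evaluate the entries of a matrix before passing it on. -/
def NM.force (m : NM) (k : NM → Bool) : Bool :=
  forceN m.a fun a => forceN m.b fun b => forceN m.c fun c => forceN m.d fun d => k ⟨a, b, c, d⟩

/-- The word in `x` and SL(2,2) numbered `ty`. -/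
def word (ty : Nat) (x : NM) : NM :=
  cond (Nat.blt ty 6) (lmul ty x)
    (cond (Nat.blt ty 12) (lmul (Nat.sub ty 6) x.inv)
      (NM.mul (rmul (Nat.mod (Nat.mod (Nat.sub ty 12) 36) 6)
          (lmul (Nat.div (Nat.mod (Nat.sub ty 12) 36) 6) x))
        (cond (Nat.blt (Nat.sub ty 12) 36) x x.inv)))

/-- Sort key of a column. -/
def key (u v : Nat) : Nat := Nat.add (Nat.mul 64 u) v

/-- The columns of `m` and their sum are in increasing order of sort key. -/
def sorted (m : NM) : Bool :=
  and (Nat.ble (key m.a m.c) (key m.b m.d))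
    (Nat.ble (key m.b m.d) (key (Nat.xor m.a m.b) (Nat.xor m.c m.d)))

/-- Which element of SL(2,2) sorts three keys. -/
def selK (k1 k2 k3 : Nat) : Nat :=
  cond (Nat.ble k1 k2)
    (cond (Nat.ble k2 k3) 0 (cond (Nat.ble k1 k3) 1 5))
    (cond (Nat.ble k1 k3) 3 (cond (Nat.ble k2 k3) 4 2))

/-- Which element of SL(2,2) sorts `m`. -/
def sel (m : NM) : Nat :=
  selK (key m.a m.c) (key m.b m.d) (key (Nat.xor m.a m.b) (Nat.xor m.c m.d))

/-- The sorted representative of the right coset of `m`. -/
def canon (m : NM) : NM := rmul (sel m) m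

/-- Bit `x` of `mask`. -/
def bit (mask x : Nat) : Bool := Nat.beq (Nat.land (Nat.shiftRight mask x) 1) 1

/-- All entries of `m` lie in the set coded by `mask`. -/
def inMask (mask : Nat) (m : NM) : Bool :=
  and (bit mask m.a) (and (bit mask m.b) (and (bit mask m.c) (bit mask m.d)))

/-- The subfield with 2 elements. -/
def F2m : Nat := 3
/-- The subfield with 4 elements. -/
def F4m : Nat := 864691128455135235
/-- The subfield with 8 elements. -/
def F8m : Nat := 62963715
/-- The elements of multiplicative order dividing 9. -/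
def C9m : Nat := 864691130939213890
/-- The elements of multiplicative order dividing 21. -/
def C21m : Nat := 5640768428949561642
/-- A primitive cube root of unity. -/
def omegaN : Nat := 59

/-- The form `(a, b; b, a + b)`: matrices commuting with the element of order three. -/
def isT (m : NM) : Bool := and (Nat.beq m.b m.c) (Nat.beq m.d (Nat.xor m.a m.b))
/-- The form `(a, b; a + b, a)`: matrices inverting the element of order three. -/
def isR (m : NM) : Bool := and (Nat.beq m.c (Nat.xor m.a m.b)) (Nat.beq m.d m.a)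
/-- The eigenvalue attached to a matrix of form `isT`. -/
def lamT (m : NM) : Nat := Nat.xor m.a (fmul m.b omegaN)
/-- The eigenvalue attached to a matrix of form `isR`. -/
def lamR (m : NM) : Nat := Nat.xor m.b (fmul m.a omegaN)

/-- Which dihedral subgroup an eigenvalue gives. -/
def labelL (l : Nat) : Nat := cond (bit C9m l) 3 (cond (bit C21m l) 2 5)

/-- The number of the subgroup generated by SL(2,2) and `m`. -/
def label (m : NM) : Nat :=
  cond (inMask F2m m) 0
    (cond (isT m) (labelL (lamT m))
      (cond (isR m) (labelL (lamR m))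
        (cond (inMask F4m m) 1 (cond (inMask F8m m) 4 6))))

/-- Certificate entry of a sorted matrix. -/
def entry (m : NM) : Nat :=
  Nat.land (Nat.shiftRight (certOf m.a)
    (Nat.mul 10 (cond (Nat.beq m.a 0) (Nat.add (Nat.mul 64 m.b) m.d)
      (Nat.add (Nat.mul 64 m.b) m.c)))) 1023

/-- Rank stored in an entry. -/
def rankE (e : Nat) : Nat := Nat.shiftRight e 7

/-- Word number stored in an entry. -/
def typeE (e : Nat) : Nat := Nat.land e 127

/-- Equality test of matrices. -/
def NM.beq (x y : NM) : Bool :=
  and (Nat.beq x.a y.a) (and (Nat.beq x.b y.b) (and (Nat.beq x.c y.c) (Nat.beq x.d y.d)))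

/-- The sorted generator attached to each label. -/
def root : Nat → NM
  | 1 => ⟨1, 58, 0, 1⟩
  | 2 => ⟨22, 39, 49, 22⟩
  | 3 => ⟨14, 23, 25, 14⟩
  | 4 => ⟨1, 24, 0, 1⟩
  | 5 => ⟨11, 35, 35, 40⟩
  | _ => ⟨1, 2, 0, 1⟩

/-- The check made for one matrix: either it is not sorted, or it is in SL(2,2), or it is the root
of its label, or the word named by its entry gives a matrix of the same label and lower rank. -/
def chk (m : NM) : Bool :=
  cond (sorted m)
    (forceN (label m) fun l =>
      cond (Nat.beq l 0) true
        (forceN (entry m) fun e =>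
          cond (Nat.beq (rankE e) 0) (NM.beq m (root l))
            ((word (typeE e) m).force fun y => (canon y).force fun cy =>
              and (Nat.beq (label cy) l) (Nat.blt (rankE (entry cy)) (rankE e))))) true

/-- Bounded universal quantifier. -/
def loop (f : Nat → Bool) : Nat → Bool
  | 0 => true
  | k + 1 => and (f k) (loop f k)

/-- The check for upper row `(a, b)`, for `a` nonzero: the lower row is `(c, (1 + b c) / a)`. -/
def chkAB (a b : Nat) : Bool :=
  cond (and (Nat.ble a b) (Nat.ble b (Nat.xor a b)))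
    (loop (fun c => forceN (fmul (finv a) (Nat.xor 1 (fmul b c))) fun d => chk ⟨a, b, c, d⟩) 64)
    true

/-- The check for upper left entry `a`. -/
def chkA (a : Nat) : Bool := loop (fun b => chkAB a b) 64

/-- The check for upper left entry `0` and upper right entry `b`: the lower left entry is `1 / b`. -/
def chkZ (b : Nat) : Bool :=
  cond (Nat.beq b 0) true
    (forceN (finv b) fun c => loop (fun d => chk ⟨0, b, c, d⟩) 64)

/-- One shard of upper left entries. -/
def shardA (lo n : Nat) : Bool := loop (fun i => chkA (Nat.add lo i)) n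

/-- The shard of upper left entry `0`. -/
def shardZ : Bool := loop chkZ 64

end Vale.Agent.Lib.P183.L7
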