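import Vale.Agent.Lib.P183.GroupInterval
import Vale.Agent.Lib.P183.SevenLattice
import Vale.Agent.Lib.P183.L7.Classify

/-! The interval above SL(2,2) in SL(2,64) is the seven element lattice. -/

namespace Vale.Agent.Lib.P183.L7

open Vale.Agent.Lib.P183

instance : Finite F64 :=
  Finite.of_injective (fun x : F64 => (⟨x.val, x.isLt⟩ : Fin 64)) (by
    intro x y h
    exact F64.ext (congrArg Fin.val h))

instance : Finite SL2 :=
  Finite.of_injective (fun x : SL2 => (x.a, x.b, x.c, x.d)) (by
    intro x y h
    have h1 := congrArg Prod.fst h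
    have h2 := congrArg (fun p => p.2.1) h
    have h3 := congrArg (fun p => p.2.2.1) h
    have h4 := congrArg (fun p => p.2.2.2) h
    apply toNM_inj
    simp only at h1 h2 h3 h4
    show NM.mk _ _ _ _ = NM.mk _ _ _ _
    rw [h1, h2, h3, h4])

/-- Whenever the root of `a` lies in the subgroup `b`, the pair `(a, b)` is in the order. -/
theorem root_check : ∀ a b : Fin 7, a ≠ 0 → memB b.val (root a.val) = true → sevenLe a b := by
  decide +kernel

theorem phi_top : phi 6 = ⊤ := rfl

theorem phi_le_iff (a b : Fin 7) : phi a.val ≤ phi b.val ↔ sevenLe a b := by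
  constructor
  · intro h
    by_cases h0 : a = 0
    · exact Or.inr (Or.inl h0)
    · have hv : a.val ≠ 0 := fun hv => h0 (Fin.ext hv)
      have h1 := h (rootE_mem_phi a.isLt hv)
      rw [mem_phi, toNM_rootE] at h1
      exact root_check a b h0 h1
  · rintro (h | h | h | ⟨h1, h2⟩ | ⟨h1, h2⟩ | ⟨h1, h2⟩)
    · rw [h]
    · rw [h]
      exact phi0_le _
    · rw [h]
      show phi _ ≤ phi 6
      rw [phi_top]
      exact le_top
    · rw [h1, h2]
      exact phi2_le_phi5
    · rw [h1, h2]
      exact phi3_le_both.2
    · rw [h1, h2]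
      exact phi3_le_both.1

/-- The map from the seven element lattice to the interval. -/
def toInterval (a : SevenLattice) : Set.Icc (phi 0) (⊤ : Subgroup SL2) :=
  ⟨phi (show Fin 7 from a).val, phi0_le _, le_top⟩

theorem toInterval_surj : Function.Surjective toInterval := by
  rintro ⟨K, hK, -⟩
  obtain ⟨i, hi, e⟩ := classify K hK
  refine ⟨(⟨i, hi⟩ : Fin 7), ?_⟩
  apply Subtype.ext
  exact e.symm

theorem toInterval_le_iff (a b : SevenLattice) : toInterval a ≤ toInterval b ↔ a ≤ b :=
  phi_le_iff a b

/-- The interval above SL(2,2) in SL(2,64) is order isomorphic to the seven element lattice. -/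
noncomputable def intervalIso : Set.Icc (phi 0) (⊤ : Subgroup SL2) ≃o SevenLattice :=
  (RelIso.ofSurjective (OrderEmbedding.ofMapLEIff toInterval toInterval_le_iff)
    toInterval_surj).symm

theorem exists_interval :
    ∃ (G : Type) (_ : Group G) (_ : Finite G) (H : Subgroup G),
      Nonempty (Set.Icc H (⊤ : Subgroup G) ≃o SevenLattice) :=
  ⟨SL2, inferInstance, inferInstance, phi 0, ⟨intervalIso⟩⟩

theorem representable_seven : Representable SevenLattice :=
  (representable_interval (phi 0)).of_orderIso intervalIso

end Vale.Agent.Lib.P183.L7
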