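import Vale.Agent.Lib.P183.L7.Descent
import Vale.Agent.Lib.P183.L7.DihedralChecks

/-! The seven subgroups of SL(2,64) containing SL(2,2). -/

namespace Vale.Agent.Lib.P183.L7

/-- The set coded by `mask` contains `0` and `1` and is closed under sum and product. -/
def subringOK (mask : Nat) : Bool :=
  and (bit mask 0) (and (bit mask 1)
    (loop (fun a => loop (fun b => cond (and (bit mask a) (bit mask b))
      (and (bit mask (Nat.xor a b)) (bit mask (fmul a b))) true) 64) 64))

/-- The set coded by `mask` is closed under inversion. -/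
def invOK (mask : Nat) : Bool := loop (fun a => cond (bit mask a) (bit mask (finv a)) true) 64

theorem subringOK_F2 : subringOK F2m = true := by decide +kernel
theorem subringOK_F4 : subringOK F4m = true := by decide +kernel
theorem subringOK_F8 : subringOK F8m = true := by decide +kernel
theorem invOK_F4 : invOK F4m = true := by decide +kernel
theorem invOK_F8 : invOK F8m = true := by decide +kernel
theorem invOK_all : invOK allM = true := by decide +kernel
theorem subringOK_all : subringOK allM = true := by decide +kernel

section Masks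

variable {mask : Nat}

theorem subring_zero (h : subringOK mask = true) : bit mask 0 = true := by
  simp only [subringOK, Bool.and_eq_true] at h
  exact h.1

theorem subring_one (h : subringOK mask = true) : bit mask 1 = true := by
  simp only [subringOK, Bool.and_eq_true] at h
  exact h.2.1

theorem subring_op (h : subringOK mask = true) {a b : Nat} (ha : a < 64) (hb : b < 64)
    (hma : bit mask a = true) (hmb : bit mask b = true) :
    bit mask (Nat.xor a b) = true ∧ bit mask (fmul a b) = true := by
  simp only [subringOK, Bool.and_eq_true] at h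
  have h1 := loop_spec (loop_spec h.2.2 a ha) b hb
  rw [hma, hmb] at h1
  simpa [Bool.and_eq_true] using h1

theorem inMask_iff {m : NM} :
    inMask mask m = true ↔
      bit mask m.a = true ∧ bit mask m.b = true ∧ bit mask m.c = true ∧ bit mask m.d = true := by
  simp only [inMask, Bool.and_eq_true]

end Masks

/-- The group SL(2,S) for the subring `S` coded by `mask`. -/
def slSub (mask : Nat) (h : subringOK mask = true) : Subgroup SL2 where
  carrier := {x | inMask mask (toNM x) = true}
  mul_mem' := by
    intro x y hx hy
    have hx' := inMask_iff.1 hx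
    have hy' := inMask_iff.1 hy
    obtain ⟨h1, h2, h3, h4⟩ := hx'
    obtain ⟨h5, h6, h7, h8⟩ := hy'
    refine inMask_iff.2 ⟨?_, ?_, ?_, ?_⟩
    · exact (subring_op h (fmul_lt _ _) (fmul_lt _ _)
        (subring_op h x.a.isLt y.a.isLt h1 h5).2 (subring_op h x.b.isLt y.c.isLt h2 h7).2).1
    · exact (subring_op h (fmul_lt _ _) (fmul_lt _ _)
        (subring_op h x.a.isLt y.b.isLt h1 h6).2 (subring_op h x.b.isLt y.d.isLt h2 h8).2).1
    · exact (subring_op h (fmul_lt _ _) (fmul_lt _ _)
        (subring_op h x.c.isLt y.a.isLt h3 h5).2 (subring_op h x.d.isLt y.c.isLt h4 h7).2).1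
    · exact (subring_op h (fmul_lt _ _) (fmul_lt _ _)
        (subring_op h x.c.isLt y.b.isLt h3 h6).2 (subring_op h x.d.isLt y.d.isLt h4 h8).2).1
  one_mem' := inMask_iff.2 ⟨subring_one h, subring_zero h, subring_zero h, subring_one h⟩
  inv_mem' := by
    intro x hx
    obtain ⟨h1, h2, h3, h4⟩ := inMask_iff.1 hx
    exact inMask_iff.2 ⟨h4, h2, h3, h1⟩

theorem mem_list_of_any {l : List NM} {m : NM} (h : l.any (NM.beq m) = true) : m ∈ l := by
  obtain ⟨y, hy, hb⟩ := List.any_eq_true.1 h
  rwa [NM.eq_of_beq hb]

theorem isT_val {m : NM} (h : isT m = true) : m.b = m.c ∧ m.d = Nat.xor m.a m.b := by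
  simp only [isT, Bool.and_eq_true] at h
  exact ⟨Nat.eq_of_beq_eq_true h.1, Nat.eq_of_beq_eq_true h.2⟩

theorem isR_val {m : NM} (h : isR m = true) : m.c = Nat.xor m.a m.b ∧ m.d = m.a := by
  simp only [isR, Bool.and_eq_true] at h
  exact ⟨Nat.eq_of_beq_eq_true h.1, Nat.eq_of_beq_eq_true h.2⟩

theorem det_val (x : SL2) :
    Nat.xor (fmul x.a.val x.d.val) (fmul x.b.val x.c.val) = 1 := congrArg F64.val x.det

theorem toNM_eta (x : SL2) : toNM x = ⟨x.a.val, x.b.val, x.c.val, x.d.val⟩ := rfl

/-- A matrix of form `isT` or `isR` is in the list of forms. -/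
theorem mem_forms (x : SL2) (h : isT (toNM x) = true ∨ isR (toNM x) = true) : toNM x ∈ forms := by
  rcases h with h | h
  · obtain ⟨h1, h2⟩ := isT_val h
    have h1' : x.b.val = x.c.val := h1
    have h2' : x.d.val = Nat.xor x.a.val x.b.val := h2
    have hd := det_val x
    rw [h2', ← h1'] at hd
    have := loop_spec (loop_spec chkFormT_true x.a.val x.a.isLt) x.b.val x.b.isLt
    have hb : Nat.beq (Nat.xor (fmul x.a.val (Nat.xor x.a.val x.b.val))
        (fmul x.b.val x.b.val)) 1 = true := by rw [hd]; rfl
    rw [hb, cond_true] at this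
    have hm := mem_list_of_any this
    rw [toNM_eta, h2', ← h1']
    exact hm
  · obtain ⟨h1, h2⟩ := isR_val h
    have h1' : x.c.val = Nat.xor x.a.val x.b.val := h1
    have h2' : x.d.val = x.a.val := h2
    have hd := det_val x
    rw [h2', h1'] at hd
    have := loop_spec (loop_spec chkFormR_true x.a.val x.a.isLt) x.b.val x.b.isLt
    have hb : Nat.beq (Nat.xor (fmul x.a.val x.a.val)
        (fmul x.b.val (Nat.xor x.a.val x.b.val))) 1 = true := by rw [hd]; rfl
    rw [hb, cond_true] at this
    have hm := mem_list_of_any this
    rw [toNM_eta, h2', h1']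
    exact hm

theorem dp_form {mask : Nat} {m : NM} (h : dp mask m = true) : isT m = true ∨ isR m = true := by
  simp only [dp, Bool.or_eq_true, Bool.and_eq_true] at h
  rcases h with h | h
  · exact Or.inl h.1
  · exact Or.inr h.1

theorem dp_mem_forms {mask : Nat} {x : SL2} (h : dp mask (toNM x) = true) : toNM x ∈ forms :=
  mem_forms x (dp_form h)

/-- The dihedral subgroup with eigenvalues in `mask`. -/
def dSub (mask : Nat) (h1 : dclosed mask = true) (h2 : dinvd mask = true)
    (h3 : dp mask ⟨1, 0, 0, 1⟩ = true) : Subgroup SL2 where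
  carrier := {x | dp mask (toNM x) = true}
  mul_mem' := by
    intro x y hx hy
    have hx' : dp mask (toNM x) = true := hx
    have hy' : dp mask (toNM y) = true := hy
    have h4 := List.all_eq_true.1 h1 _ (dp_mem_forms hx')
    rw [hx', cond_true] at h4
    have h5 := List.all_eq_true.1 h4 _ (dp_mem_forms hy')
    rw [hy', cond_true] at h5
    exact h5
  one_mem' := h3
  inv_mem' := by
    intro x hx
    have hx' : dp mask (toNM x) = true := hx
    have h4 := List.all_eq_true.1 h2 _ (dp_mem_forms hx')
    rw [hx', cond_true] at h4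
    exact h4

/-- Membership tests of the seven subgroups. -/
def memB : Nat → NM → Bool
  | 0, m => inMask F2m m
  | 1, m => inMask F4m m
  | 2, m => dp C21m m
  | 3, m => dp C9m m
  | 4, m => inMask F8m m
  | 5, m => dp allM m
  | _, _ => true

/-- The seven subgroups of SL(2,64) containing SL(2,2): SL(2,2), SL(2,4), the dihedral groups of
orders 42 and 18, SL(2,8), the dihedral group of order 126, and the whole group. -/
def phi : Nat → Subgroup SL2
  | 0 => slSub F2m subringOK_F2
  | 1 => slSub F4m subringOK_F4
  | 2 => dSub C21m dclosed_C21 dinvd_C21 (by decide +kernel)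
  | 3 => dSub C9m dclosed_C9 dinvd_C9 (by decide +kernel)
  | 4 => slSub F8m subringOK_F8
  | 5 => dSub allM dclosed_all dinvd_all (by decide +kernel)
  | _ => ⊤

theorem mem_phi (i : Nat) (x : SL2) : x ∈ phi i ↔ memB i (toNM x) = true := by
  match i with
  | 0 => exact Iff.rfl
  | 1 => exact Iff.rfl
  | 2 => exact Iff.rfl
  | 3 => exact Iff.rfl
  | 4 => exact Iff.rfl
  | 5 => exact Iff.rfl
  | n + 6 => exact ⟨fun _ => rfl, fun _ => Subgroup.mem_top _⟩

/-- The six matrices of SL(2,2). -/
def h6 : List NM :=
  [⟨1, 0, 0, 1⟩, ⟨1, 1, 0, 1⟩, ⟨1, 0, 1, 1⟩, ⟨0, 1, 1, 0⟩, ⟨0, 1, 1, 1⟩, ⟨1, 1, 1, 0⟩]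

/-- Every determinant one matrix with entries coded by `F2m` is one of the six. -/
def chkH : Bool :=
  loop (fun a => loop (fun b => loop (fun c => loop (fun d =>
    cond (and (and (bit F2m a) (bit F2m b)) (and (bit F2m c) (bit F2m d)))
      (cond (Nat.beq (Nat.xor (fmul a d) (fmul b c)) 1) (h6.any (NM.beq ⟨a, b, c, d⟩)) true)
      true) 2) 2) 2) 2

/-- The entries coded by `F2m` are below 2. -/
theorem F2m_lt : ∀ n, n < 64 → bit F2m n = true → n < 2 := by decide +kernel

theorem chkH_true : chkH = true := by decide +kernel

theorem h6_memB : ∀ i, i < 7 → h6.all (memB i) = true := by decide +kernel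

theorem mem_h6 {x : SL2} (hx : x ∈ phi 0) : toNM x ∈ h6 := by
  obtain ⟨h1', h2', h3', h4'⟩ := inMask_iff.1 ((mem_phi 0 x).1 hx)
  have h1 : bit F2m x.a.val = true := h1'
  have h2 : bit F2m x.b.val = true := h2'
  have h3 : bit F2m x.c.val = true := h3'
  have h4 : bit F2m x.d.val = true := h4'
  have ha := F2m_lt _ x.a.isLt h1
  have hb := F2m_lt _ x.b.isLt h2
  have hc := F2m_lt _ x.c.isLt h3
  have hd := F2m_lt _ x.d.isLt h4
  have h5 := loop_spec (loop_spec (loop_spec (loop_spec chkH_true _ ha) _ hb) _ hc) _ hd
  rw [h1, h2, h3, h4] at h5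
  have h6' : Nat.beq (Nat.xor (fmul x.a.val x.d.val) (fmul x.b.val x.c.val)) 1 = true := by
    rw [det_val]; rfl
  simp only [Bool.and_self, cond_true] at h5
  rw [h6', cond_true] at h5
  exact mem_list_of_any h5

theorem phi0_le (i : Nat) : phi 0 ≤ phi i := by
  intro x hx
  by_cases hi : i < 7
  · exact (mem_phi i x).2 (List.all_eq_true.1 (h6_memB i hi) _ (mem_h6 hx))
  · have : phi i = ⊤ := by
      match i, hi with
      | n + 7, _ => rfl
    rw [this]; exact Subgroup.mem_top _

theorem hE_mem_phi0 : ∀ i, hE i ∈ phi 0 := by
  intro i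
  match i with
  | 0 => exact (phi 0).one_mem
  | 1 => exact (mem_phi 0 _).2 (by decide +kernel)
  | 2 => exact (mem_phi 0 _).2 (by decide +kernel)
  | 3 => exact (mem_phi 0 _).2 (by decide +kernel)
  | 4 => exact (mem_phi 0 _).2 (by decide +kernel)
  | n + 5 =>
    show hE 5 ∈ phi 0
    exact (mem_phi 0 _).2 (by decide +kernel)

/-- Inclusions among the dihedral groups, and of the one of order 18 in SL(2,8). -/
def chkIncl : Bool :=
  and (forms.all fun y => cond (dp C21m y) (dp allM y) true)
    (forms.all fun y => cond (dp C9m y) (and (dp allM y) (inMask F8m y)) true)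

theorem chkIncl_true : chkIncl = true := by decide +kernel

theorem phi2_le_phi5 : phi 2 ≤ phi 5 := by
  intro x hx
  have hx' : dp C21m (toNM x) = true := hx
  have h1 := List.all_eq_true.1 (by
    have := chkIncl_true
    simp only [chkIncl, Bool.and_eq_true] at this
    exact this.1) _ (dp_mem_forms hx')
  rw [hx', cond_true] at h1
  exact h1

theorem phi3_le_both : phi 3 ≤ phi 5 ∧ phi 3 ≤ phi 4 := by
  have h0 := chkIncl_true
  simp only [chkIncl, Bool.and_eq_true] at h0
  constructor
  · intro x hx
    have hx' : dp C9m (toNM x) = true := hx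
    have h1 := List.all_eq_true.1 h0.2 _ (dp_mem_forms hx')
    rw [hx', cond_true, Bool.and_eq_true] at h1
    exact h1.1
  · intro x hx
    have hx' : dp C9m (toNM x) = true := hx
    have h1 := List.all_eq_true.1 h0.2 _ (dp_mem_forms hx')
    rw [hx', cond_true, Bool.and_eq_true] at h1
    exact h1.2

/-- Every natural number below 64 is coded by `allM`. -/
theorem allM_bit : ∀ n, n < 64 → bit allM n = true := by decide +kernel

/-- The label of a matrix says which subgroup it lies in. -/
theorem label_mem (x : SL2) : memB (label (toNM x)) (toNM x) = true := by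
  generalize hm : toNM x = m
  have haLt : m.a < 64 := by rw [← hm]; exact x.a.isLt
  have hbLt : m.b < 64 := by rw [← hm]; exact x.b.isLt
  unfold label
  cases h1 : inMask F2m m
  · simp only [cond_false]
    cases h2 : isT m
    · simp only [cond_false]
      cases h3 : isR m
      · simp only [cond_false]
        cases h4 : inMask F4m m
        · simp only [cond_false]
          cases h5 : inMask F8m m
          · simp only [cond_false]; rfl
          · simp only [cond_true]; exact h5
        · simp only [cond_true]; exact h4
      · simp only [cond_true]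
        unfold labelL
        cases h4 : bit C9m (lamR m)
        · simp only [cond_false]
          cases h5 : bit C21m (lamR m)
          · simp only [cond_false]
            show dp allM m = true
            have hl : lamR m < 64 := xor_lt hbLt (fmul_lt _ _)
            simp [dp, h3, allM_bit _ hl]
          · simp only [cond_true]
            show dp C21m m = true
            simp [dp, h3, h5]
        · simp only [cond_true]
          show dp C9m m = true
          simp [dp, h3, h4]
    · simp only [cond_true]
      unfold labelL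
      cases h4 : bit C9m (lamT m)
      · simp only [cond_false]
        cases h5 : bit C21m (lamT m)
        · simp only [cond_false]
          show dp allM m = true
          have hl : lamT m < 64 := xor_lt haLt (fmul_lt _ _)
          simp [dp, h2, allM_bit _ hl]
        · simp only [cond_true]
          show dp C21m m = true
          simp [dp, h2, h5]
      · simp only [cond_true]
        show dp C9m m = true
        simp [dp, h2, h4]
  · simp only [cond_true]
    exact h1

end Vale.Agent.Lib.P183.L7
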